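import Vale.Agent.Lib.P116.Defs

/-!
# The standard charts of the sphere and the open mapping property of holomorphic injections
-/

namespace Vale.Agent.Lib.P116

open Set Filter Topology OnePoint

@[simp] lemma toC_coe (z : ℂ) : toC (z : Sphere) = z := rfl

@[simp] lemma toC_infty : toC (∞ : Sphere) = 0 := rfl

@[simp] lemma sphereInv_infty : sphereInv (∞ : Sphere) = ((0 : ℂ) : Sphere) := rfl

@[simp] lemma sphereInv_zero : sphereInv ((0 : ℂ) : Sphere) = ∞ := by
  simp [sphereInv]

lemma sphereInv_coe {z : ℂ} (hz : z ≠ 0) : sphereInv (z : Sphere) = ((z⁻¹ : ℂ) : Sphere) := by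
  simp [sphereInv, hz]

lemma sphereInv_coe_eq (z : ℂ) :
    sphereInv (z : Sphere) = if z = 0 then ∞ else ((z⁻¹ : ℂ) : Sphere) := rfl

lemma sphereInv_sphereInv (p : Sphere) : sphereInv (sphereInv p) = p := by
  induction p using OnePoint.rec with
  | infty => simp
  | coe z =>
    by_cases hz : z = 0
    · subst hz; simp
    · rw [sphereInv_coe hz, sphereInv_coe (inv_ne_zero hz), inv_inv]

lemma sphereInv_injective : Function.Injective sphereInv :=
  Function.LeftInverse.injective sphereInv_sphereInv

lemma tendsto_sphereInv_coe_nhds_zero :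
    Tendsto (fun z : ℂ => sphereInv (z : Sphere)) (𝓝 0) (𝓝 (∞ : Sphere)) := by
  rw [← nhdsNE_sup_pure (0 : ℂ), tendsto_sup]
  constructor
  · have h1 : Tendsto (fun z : ℂ => ((z⁻¹ : ℂ) : Sphere)) (𝓝[≠] (0 : ℂ)) (𝓝 (∞ : Sphere)) := by
      have h2 : Tendsto (fun z : ℂ => z⁻¹) (𝓝[≠] (0 : ℂ)) (coclosedCompact ℂ) := by
        rw [coclosedCompact_eq_cocompact, ← Metric.cobounded_eq_cocompact]
        exact tendsto_inv₀_nhdsNE_zero
      exact OnePoint.tendsto_coe_infty.comp h2
    refine h1.congr' ?_
    filter_upwards [self_mem_nhdsWithin] with z hz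
    exact (sphereInv_coe hz).symm
  · rw [tendsto_pure_left]
    intro s hs
    simpa using mem_of_mem_nhds hs

lemma continuous_sphereInv : Continuous sphereInv := by
  rw [OnePoint.continuous_iff]
  constructor
  · have h1 : Tendsto (fun z : ℂ => ((z⁻¹ : ℂ) : Sphere)) (coclosedCompact ℂ)
        (𝓝 ((0 : ℂ) : Sphere)) := by
      have h2 : Tendsto (fun z : ℂ => z⁻¹) (coclosedCompact ℂ) (𝓝 (0 : ℂ)) := by
        rw [coclosedCompact_eq_cocompact, ← Metric.cobounded_eq_cocompact]
        exact tendsto_inv₀_cobounded
      exact (OnePoint.continuous_coe.tendsto 0).comp h2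
    refine h1.congr' ?_
    have h3 : ∀ᶠ z : ℂ in coclosedCompact ℂ, z ≠ 0 := by
      rw [coclosedCompact_eq_cocompact, ← Metric.cobounded_eq_cocompact]
      exact Bornology.eventually_ne_cobounded 0
    filter_upwards [h3] with z hz
    exact (sphereInv_coe hz).symm
  · rw [continuous_iff_continuousAt]
    intro z
    by_cases hz : z = 0
    · subst hz
      rw [ContinuousAt, sphereInv_zero]
      exact tendsto_sphereInv_coe_nhds_zero
    · have h1 : ContinuousAt (fun z : ℂ => ((z⁻¹ : ℂ) : Sphere)) z :=
        OnePoint.continuous_coe.continuousAt.comp (continuousAt_inv₀ hz)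
      refine h1.congr ?_
      filter_upwards [isOpen_ne.mem_nhds hz] with w hw
      exact (sphereInv_coe hw).symm

lemma continuousAt_toC_coe (z : ℂ) : ContinuousAt toC (z : Sphere) := by
  rw [OnePoint.continuousAt_coe]
  exact continuousAt_id

/-- The domain of the standard chart around `q`. -/
def chartDom (q : Sphere) : Set Sphere :=
  OnePoint.elim q {p | p ≠ ((0 : ℂ) : Sphere)} (fun _ => {p | p ≠ ∞})

lemma isOpen_chartDom (q : Sphere) : IsOpen (chartDom q) := by
  induction q using OnePoint.rec with
  | infty => exact isOpen_ne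
  | coe z => exact isOpen_ne

lemma mem_chartDom (q : Sphere) : q ∈ chartDom q := by
  induction q using OnePoint.rec with
  | infty => exact OnePoint.infty_ne_coe 0
  | coe z => exact OnePoint.coe_ne_infty z

lemma chartInv_chart (q : Sphere) {y : Sphere} (hy : y ∈ chartDom q) :
    chartInv q (chart q y) = y := by
  induction q using OnePoint.rec with
  | infty =>
    have hy0 : y ≠ ((0 : ℂ) : Sphere) := hy
    simp only [chartInv, chart, OnePoint.elim_infty]
    induction y using OnePoint.rec with
    | infty => simp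
    | coe w =>
      have hw : w ≠ 0 := fun h => hy0 (by rw [h])
      rw [sphereInv_coe hw, toC_coe, sphereInv_coe (inv_ne_zero hw), inv_inv]
  | coe z =>
    have hy0 : y ≠ ∞ := hy
    simp only [chartInv, chart, OnePoint.elim_some]
    induction y using OnePoint.rec with
    | infty => exact absurd rfl hy0
    | coe w => rfl

lemma chartInv_chart_self (q : Sphere) : chartInv q (chart q q) = q :=
  chartInv_chart q (mem_chartDom q)

lemma continuous_chartInv (q : Sphere) : Continuous (chartInv q) := by
  induction q using OnePoint.rec with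
  | infty => exact continuous_sphereInv.comp OnePoint.continuous_coe
  | coe z => exact OnePoint.continuous_coe

lemma chartInv_injective (q : Sphere) : Function.Injective (chartInv q) := by
  induction q using OnePoint.rec with
  | infty => exact sphereInv_injective.comp OnePoint.coe_injective
  | coe z => exact OnePoint.coe_injective

lemma continuousAt_chart (q : Sphere) : ContinuousAt (chart q) q := by
  induction q using OnePoint.rec with
  | infty =>
    have h1 : ContinuousAt toC (sphereInv (∞ : Sphere)) := by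
      rw [sphereInv_infty]; exact continuousAt_toC_coe 0
    exact ContinuousAt.comp (f := sphereInv) (g := toC) h1 continuous_sphereInv.continuousAt
  | coe z => exact continuousAt_toC_coe z

lemma chart_injOn (q : Sphere) : InjOn (chart q) (chartDom q) := by
  intro a ha b hb hab
  rw [← chartInv_chart q ha, ← chartInv_chart q hb, hab]

/-- Open mapping property: a map that is holomorphic at `p` in the standard charts and
injective near `p` sends neighbourhoods of `p` to neighbourhoods of `f p`. -/
theorem HolAt.image_mem_nhds {f : Sphere → Sphere} {p : Sphere} (hf : HolAt f p)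
    {U : Set Sphere} (hU : U ∈ 𝓝 p) (hinj : InjOn f U) {N : Set Sphere} (hN : N ∈ 𝓝 p) :
    f '' N ∈ 𝓝 (f p) := by
  obtain ⟨hcont, han⟩ := hf
  set q := f p with hq
  set c := chart p p with hc
  let g : ℂ → ℂ := fun w => chart q (f (chartInv p w))
  have hcp : chartInv p c = p := chartInv_chart_self p
  -- a neighbourhood of `p` inside `N ∩ U` mapped by `f` into the chart domain of `q`
  have hN₁ : N ∩ U ∩ f ⁻¹' chartDom q ∈ 𝓝 p :=
    inter_mem (inter_mem hN hU) (hcont.preimage_mem_nhds ((isOpen_chartDom q).mem_nhds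
      (mem_chartDom q)))
  set N₁ := N ∩ U ∩ f ⁻¹' chartDom q with hN₁def
  have hM₁ : chartInv p ⁻¹' N₁ ∈ 𝓝 c := by
    have := (continuous_chartInv p).continuousAt (x := c)
    rw [ContinuousAt, hcp] at this
    exact this hN₁
  set M₁ := chartInv p ⁻¹' N₁ with hM₁def
  have hginj : InjOn g M₁ := by
    intro a ha b hb hab
    have ha' : chartInv p a ∈ N₁ := ha
    have hb' : chartInv p b ∈ N₁ := hb
    have h1 : f (chartInv p a) = f (chartInv p b) := chart_injOn q ha'.2 hb'.2 hab
    exact chartInv_injective p (hinj ha'.1.2 hb'.1.2 h1)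
  have hgc : g c = chart q q := by
    simp only [g, hcp, hq]
  have hopen : 𝓝 (g c) ≤ map g (𝓝 c) := by
    rcases han.eventually_constant_or_nhds_le_map_nhds with h | h
    · exfalso
      have h2 : ∀ᶠ z in 𝓝 c, z ∈ M₁ ∧ g z = g c := (eventually_mem_set.mpr hM₁).and h
      have h3 : ∃ᶠ z in 𝓝 c, z ≠ c := by
        have : (𝓝[≠] c).NeBot := inferInstance
        exact (frequently_iff_neBot.mpr this : ∃ᶠ z in 𝓝 c, z ∈ ({c}ᶜ : Set ℂ))
      obtain ⟨z, hzne, hzM, hzg⟩ := (h3.and_eventually h2).exists
      exact hzne (hginj hzM (mem_of_mem_nhds hM₁) hzg)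
    · exact h
  have hgM : g '' M₁ ∈ 𝓝 (chart q q) := by
    rw [← hgc]
    exact hopen (image_mem_map hM₁)
  have hV : chartDom q ∩ chart q ⁻¹' (g '' M₁) ∈ 𝓝 q :=
    inter_mem ((isOpen_chartDom q).mem_nhds (mem_chartDom q))
      ((continuousAt_chart q).preimage_mem_nhds hgM)
  refine mem_of_superset hV ?_
  rintro y ⟨hyD, m, hm, hmy⟩
  have hm' : chartInv p m ∈ N₁ := hm
  have : f (chartInv p m) = y := chart_injOn q hm'.2 hyD hmy
  exact ⟨chartInv p m, hm'.1.1, this⟩

end Vale.Agent.Lib.P116
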