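import Mathlib

/-!
# Koebe's circle-domain conjecture: basic definitions (P116)

The Riemann sphere is modelled as `OnePoint ℂ`.  Closed round discs are the images of the
closed unit disc under Möbius transformations, i.e. under the action of `GL (Fin 2) ℂ` on
`OnePoint ℂ` defined in Mathlib.  Holomorphy is expressed in the two standard charts
`z` (away from `∞`) and `1/z` (away from `0`).
-/

namespace Vale.Agent.Lib.P116

open Set Filter Topology OnePoint

/-- The Riemann sphere `ℂ ∪ {∞}`: the one-point compactification of `ℂ`. -/
abbrev Sphere : Type := OnePoint ℂ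

/-- A domain: a nonempty connected open subset of the sphere. -/
def IsDomain (G : Set Sphere) : Prop := IsOpen G ∧ IsConnected G

/-- The closed unit disc `{|z| ≤ 1}` as a subset of the sphere. -/
def closedUnitDisc : Set Sphere := (fun z : ℂ => (z : Sphere)) '' Metric.closedBall (0 : ℂ) 1

/-- The open unit disc `{|z| < 1}` as a subset of the sphere. -/
def openUnitDisc : Set Sphere := (fun z : ℂ => (z : Sphere)) '' Metric.ball (0 : ℂ) 1

/-- Closed round discs: the images of the closed unit disc under Möbius transformations
(the action of `GL (Fin 2) ℂ` on `OnePoint ℂ`). -/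
def IsClosedRoundDisc (D : Set Sphere) : Prop :=
  ∃ g : GL (Fin 2) ℂ, D = (fun p : Sphere => g • p) '' closedUnitDisc

/-- Circle domains: domains each of whose complementary components is a single point or a
closed round disc. -/
def IsCircleDomain (Ω : Set Sphere) : Prop :=
  IsDomain Ω ∧ ∀ p ∈ Ωᶜ,
    connectedComponentIn Ωᶜ p = {p} ∨ IsClosedRoundDisc (connectedComponentIn Ωᶜ p)

/-- The finite part of a point of the sphere (the point `∞` is sent to `0`). -/
def toC (p : Sphere) : ℂ := OnePoint.elim p 0 id

/-- The inversion `z ↦ 1/z` of the sphere, exchanging `0` and `∞`. -/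
noncomputable def sphereInv (p : Sphere) : Sphere :=
  OnePoint.elim p ((0 : ℂ) : Sphere) (fun z => if z = 0 then ∞ else ((z⁻¹ : ℂ) : Sphere))

/-- The standard chart around `q`: the coordinate `z` if `q ≠ ∞`, the coordinate `1/z` if
`q = ∞`. -/
noncomputable def chart (q : Sphere) (p : Sphere) : ℂ :=
  OnePoint.elim q (toC (sphereInv p)) (fun _ => toC p)

/-- The inverse of the standard chart around `q`. -/
noncomputable def chartInv (q : Sphere) (w : ℂ) : Sphere :=
  OnePoint.elim q (sphereInv (w : Sphere)) (fun _ => (w : Sphere))

/-- `f` is holomorphic at `p` in the standard charts of the sphere: it is continuous at `p`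
and its expression in the charts around `p` and `f p` is analytic at the coordinate of `p`. -/
def HolAt (f : Sphere → Sphere) (p : Sphere) : Prop :=
  ContinuousAt f p ∧
    AnalyticAt ℂ (fun w : ℂ => chart (f p) (f (chartInv p w))) (chart p p)

/-- Conformal equivalence of two subsets of the sphere: a bijection from `G` onto `Ω` that is
holomorphic in the standard charts at every point of `G`. -/
def ConfEquiv (G Ω : Set Sphere) : Prop :=
  ∃ f : Sphere → Sphere, Set.BijOn f G Ω ∧ ∀ p ∈ G, HolAt f p

/-- The union of the non-degenerate complementary components of `G`: the points of the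
complement of `G` whose connected component in the complement is not a single point. -/
def nondegPart (G : Set Sphere) : Set Sphere :=
  {p | p ∈ Gᶜ ∧ connectedComponentIn Gᶜ p ≠ {p}}

/-- The segment `[-2, 2]` of the real axis, as a subset of the sphere. -/
def seg : Set Sphere := (fun x : ℝ => ((x : ℂ) : Sphere)) '' Icc (-2 : ℝ) 2

end Vale.Agent.Lib.P116
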