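import Vale.Agent.Lib.P116.Reduction

/-!
# Reduction of Koebe's conjecture to domains whose non-degenerate complementary
components are dense in the complement
-/

namespace Vale.Agent.Lib.P116

open Set Filter Topology OnePoint

/-- Every neighbourhood of a point of the sphere contains a connected set through the point
with at least two points. -/
lemma exists_preconnected_subset_of_mem_nhds (p : Sphere) {V : Set Sphere} (hV : V ∈ 𝓝 p) :
    ∃ W ⊆ V, IsPreconnected W ∧ p ∈ W ∧ ∃ q ∈ W, q ≠ p := by
  have hcont := (continuous_chartInv p).continuousAt (x := chart p p)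
  rw [ContinuousAt, chartInv_chart_self] at hcont
  obtain ⟨δ, hδ, hball⟩ := Metric.mem_nhds_iff.mp (hcont hV)
  refine ⟨chartInv p '' Metric.ball (chart p p) δ, ?_, ?_, ?_, ?_⟩
  · rintro _ ⟨w, hw, rfl⟩
    exact hball hw
  · exact ((convex_ball (chart p p) δ).isPreconnected).image _
      (continuous_chartInv p).continuousOn
  · exact ⟨chart p p, Metric.mem_ball_self hδ, chartInv_chart_self p⟩
  · refine ⟨chartInv p (chart p p + (δ / 2 : ℝ)), ⟨_, ?_, rfl⟩, ?_⟩
    · rw [Metric.mem_ball, dist_eq_norm, add_sub_cancel_left, Complex.norm_real,
        Real.norm_of_nonneg (by linarith)]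
      linarith
    · intro h
      have h' : chartInv p (chart p p + (δ / 2 : ℝ)) = chartInv p (chart p p) := by
        rw [chartInv_chart_self]; exact h
      have h2 := chartInv_injective p h'
      have h3 : ((δ / 2 : ℝ) : ℂ) = 0 := by
        linear_combination h2
      have h4 : δ / 2 = 0 := by exact_mod_cast h3
      linarith

/-- A point component of the complement of `G` lies in the closure of `G`. -/
lemma mem_closure_of_point_component {G : Set Sphere} {p : Sphere}
    (hp : connectedComponentIn Gᶜ p = {p}) : p ∈ closure G := by
  by_contra hcl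
  have hV : (closure G)ᶜ ∈ 𝓝 p := isClosed_closure.isOpen_compl.mem_nhds hcl
  obtain ⟨W, hWV, hWpre, hpW, q, hqW, hqp⟩ := exists_preconnected_subset_of_mem_nhds p hV
  have hWG : W ⊆ Gᶜ := hWV.trans (compl_subset_compl.mpr subset_closure)
  have := hWpre.subset_connectedComponentIn hpW hWG hqW
  rw [hp] at this
  exact hqp this

/-- Koebe's conjecture follows from its restriction to the domains `D` whose complement is
the closure of the union of the non-degenerate complementary components of `D`. -/
theorem koebe_reduction_dense
    (h : ∀ D : Set Sphere, IsDomain D → Dᶜ = closure (nondegPart D) →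
      ∃ Ω : Set Sphere, IsCircleDomain Ω ∧ ConfEquiv D Ω)
    (G : Set Sphere) (hG : IsDomain G) :
    ∃ Ω : Set Sphere, IsCircleDomain Ω ∧ ConfEquiv G Ω := by
  set A := closure (nondegPart G) with hA
  have hAG : A ⊆ Gᶜ :=
    closure_minimal (fun p hp => hp.1) hG.1.isClosed_compl
  have hpts : ∀ p ∈ Gᶜ, p ∉ A → connectedComponentIn Gᶜ p = {p} := by
    intro p hp hpA
    by_contra hne
    exact hpA (subset_closure ⟨hp, hne⟩)
  have hGsub : G ⊆ Aᶜ := fun p hp hpA => hAG hpA hp
  have hDcl : Aᶜ ⊆ closure G := by
    intro p hp
    by_cases hpG : p ∈ G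
    · exact subset_closure hpG
    · exact mem_closure_of_point_component (hpts p hpG hp)
  have hD : IsDomain Aᶜ :=
    ⟨isClosed_closure.isOpen_compl, hG.2.subset_closure hGsub hDcl⟩
  have hsub : nondegPart G ⊆ nondegPart Aᶜ := by
    intro p hp
    have hpA : p ∈ A := subset_closure hp
    refine ⟨by simpa using hpA, ?_⟩
    rw [compl_compl]
    intro hsing
    -- the component of `p` in `Gᶜ` is contained in `nondegPart G`, hence in `A`
    have hcomp : connectedComponentIn Gᶜ p ⊆ A := by
      intro q hq
      refine subset_closure ⟨connectedComponentIn_subset _ _ hq, ?_⟩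
      rw [← connectedComponentIn_eq hq]
      intro hsq
      have hpq : p ∈ connectedComponentIn Gᶜ p := mem_connectedComponentIn hp.1
      rw [hsq] at hpq
      have : p = q := hpq
      subst this
      exact hp.2 hsq
    have h1 := isPreconnected_connectedComponentIn.subset_connectedComponentIn
      (mem_connectedComponentIn hp.1) hcomp
    rw [hsing] at h1
    apply hp.2
    exact Set.Subset.antisymm h1 (by
      rintro _ rfl
      exact mem_connectedComponentIn hp.1)
  have hDeq : Aᶜᶜ = closure (nondegPart Aᶜ) := by
    rw [compl_compl]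
    apply Set.Subset.antisymm
    · exact closure_mono hsub
    · refine closure_minimal (fun p hp => ?_) isClosed_closure
      simpa using hp.1
  exact koebe_reduction G A hG isClosed_closure hAG hpts (h Aᶜ hD hDeq)

end Vale.Agent.Lib.P116
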