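import Vale.Agent.Lib.P116.Charts

/-!
# The open unit disc is a circle domain
-/

namespace Vale.Agent.Lib.P116

open Set Filter Topology OnePoint

/-- The matrix of the Möbius transformation `z ↦ 1/z`. -/
noncomputable def swapGL : GL (Fin 2) ℂ :=
  Matrix.GeneralLinearGroup.mkOfDetNeZero !![0, 1; 1, 0] (by simp [Matrix.det_fin_two])

lemma swapGL_smul (p : Sphere) : swapGL • p = sphereInv p := by
  induction p using OnePoint.rec with
  | infty =>
    rw [OnePoint.smul_infty_eq_ite]
    simp [swapGL]
  | coe z =>
    rw [OnePoint.smul_some_eq_ite, sphereInv_coe_eq]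
    by_cases hz : z = 0 <;> simp [swapGL, hz]

lemma isOpen_openUnitDisc : IsOpen openUnitDisc :=
  OnePoint.isOpen_image_coe.mpr Metric.isOpen_ball

lemma isConnected_openUnitDisc : IsConnected openUnitDisc :=
  (Metric.isConnected_ball (x := (0 : ℂ)) one_pos).image _ OnePoint.continuous_coe.continuousOn

lemma isConnected_closedUnitDisc : IsConnected closedUnitDisc :=
  ((convex_closedBall (0 : ℂ) 1).isConnected ⟨0, by simp⟩).image _
    OnePoint.continuous_coe.continuousOn

lemma compl_openUnitDisc : openUnitDiscᶜ = sphereInv '' closedUnitDisc := by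
  ext p
  induction p using OnePoint.rec with
  | infty =>
    simp only [openUnitDisc, closedUnitDisc, mem_compl_iff, mem_image, not_exists, not_and]
    constructor
    · intro _
      exact ⟨((0 : ℂ) : Sphere), ⟨0, by simp, rfl⟩, by simp⟩
    · intro _ z _ h
      exact OnePoint.coe_ne_infty z h
  | coe w =>
    simp only [openUnitDisc, closedUnitDisc, mem_compl_iff, mem_image, not_exists, not_and]
    constructor
    · intro h
      have hw : 1 ≤ ‖w‖ := by
        by_contra hlt
        exact h w (by simpa using not_le.mp hlt) rfl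
      have hw0 : w ≠ 0 := by
        intro h0; rw [h0] at hw; simp at hw; linarith
      refine ⟨((w⁻¹ : ℂ) : Sphere), ⟨w⁻¹, ?_, rfl⟩, ?_⟩
      · simp only [Metric.mem_closedBall, dist_zero_right, norm_inv]
        exact inv_le_one_of_one_le₀ hw
      · rw [sphereInv_coe (inv_ne_zero hw0), inv_inv]
    · rintro ⟨_, ⟨z, hz, rfl⟩, hzw⟩ y hy hyw
      have hz' : ‖z‖ ≤ 1 := by simpa using hz
      have hy' : ‖y‖ < 1 := by simpa using hy
      rw [OnePoint.coe_eq_coe] at hyw
      subst hyw
      by_cases hz0 : z = 0
      · subst hz0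
        rw [sphereInv_zero] at hzw
        exact OnePoint.infty_ne_coe _ hzw
      · rw [sphereInv_coe hz0, OnePoint.coe_eq_coe] at hzw
        rw [← hzw, norm_inv] at hy'
        have hzpos : 0 < ‖z‖ := norm_pos_iff.mpr hz0
        have : 1 ≤ ‖z‖⁻¹ := (one_le_inv₀ hzpos).mpr hz'
        linarith

lemma isCircleDomain_openUnitDisc : IsCircleDomain openUnitDisc := by
  refine ⟨⟨isOpen_openUnitDisc, isConnected_openUnitDisc⟩, fun p hp => Or.inr ?_⟩
  have hpre : IsPreconnected openUnitDiscᶜ := by
    rw [compl_openUnitDisc]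
    exact (isConnected_closedUnitDisc.image _ continuous_sphereInv.continuousOn).isPreconnected
  rw [hpre.connectedComponentIn hp]
  refine ⟨swapGL, ?_⟩
  rw [compl_openUnitDisc]
  exact image_congr fun p _ => (swapGL_smul p).symm

end Vale.Agent.Lib.P116
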