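import Vale.Agent.Lib.P116.Topology
import Vale.Agent.Lib.P116.Charts

/-!
# Point components can be ignored

If `A` is a closed subset of the complement of a domain `G` such that every complementary
component of `G` outside `A` is a single point, and the complement of `A` is conformally
equivalent to a circle domain, then so is `G`.
-/

namespace Vale.Agent.Lib.P116

open Set Filter Topology OnePoint

theorem koebe_reduction (G A : Set Sphere) (hG : IsDomain G) (hA : IsClosed A) (hAG : A ⊆ Gᶜ)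
    (hpts : ∀ p ∈ Gᶜ, p ∉ A → connectedComponentIn Gᶜ p = {p})
    (hKA : ∃ Ω₀ : Set Sphere, IsCircleDomain Ω₀ ∧ ConfEquiv Aᶜ Ω₀) :
    ∃ Ω : Set Sphere, IsCircleDomain Ω ∧ ConfEquiv G Ω := by
  obtain ⟨Ω₀, hΩ₀, ψ, hbij, hhol⟩ := hKA
  have hGsub : G ⊆ Aᶜ := fun p hp hpA => hAG hpA hp
  have hAo : IsOpen Aᶜ := hA.isOpen_compl
  have himg : ∀ p ∈ Aᶜ, ∀ N ∈ 𝓝 p, ψ '' N ∈ 𝓝 (ψ p) := fun p hp N hN =>
    (hhol p hp).image_mem_nhds (hAo.mem_nhds hp) hbij.injOn hN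
  refine ⟨ψ '' G, ⟨⟨?_, ?_⟩, ?_⟩, ψ, (hbij.injOn.mono hGsub).bijOn_image,
    fun p hp => hhol p (hGsub hp)⟩
  · -- `ψ '' G` is open
    rw [isOpen_iff_mem_nhds]
    rintro _ ⟨p, hp, rfl⟩
    exact himg p (hGsub hp) G (hG.1.mem_nhds hp)
  · -- `ψ '' G` is connected
    exact hG.2.image ψ fun p hp => (hhol p (hGsub hp)).1.continuousWithinAt
  · -- the complementary components
    have hΩsub : ψ '' G ⊆ Ω₀ := by
      rintro _ ⟨p, hp, rfl⟩
      exact hbij.mapsTo (hGsub hp)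
    have hCclosed : IsClosed (ψ '' G)ᶜ := by
      rw [isClosed_compl_iff, isOpen_iff_mem_nhds]
      rintro _ ⟨p, hp, rfl⟩
      exact himg p (hGsub hp) G (hG.1.mem_nhds hp)
    have hKclosed : IsClosed Ω₀ᶜ := hΩ₀.1.1.isClosed_compl
    have hKC : Ω₀ᶜ ⊆ (ψ '' G)ᶜ := compl_subset_compl.mpr hΩsub
    -- the inverse map
    let χ : Sphere → Sphere := Function.invFunOn ψ Aᶜ
    have hχmem : ∀ q ∈ Ω₀, χ q ∈ Aᶜ := fun q hq => Function.invFunOn_mem (hbij.surjOn hq)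
    have hχr : ∀ q ∈ Ω₀, ψ (χ q) = q := fun q hq => Function.invFunOn_eq (hbij.surjOn hq)
    have hχl : ∀ p ∈ Aᶜ, χ (ψ p) = p := fun p hp => hbij.injOn.leftInvOn_invFunOn hp
    have hχcont : ContinuousOn χ Ω₀ := by
      intro q hq
      apply ContinuousAt.continuousWithinAt
      intro N hN
      have h1 : ψ '' (N ∩ Aᶜ) ∈ 𝓝 (ψ (χ q)) :=
        himg (χ q) (hχmem q hq) _ (inter_mem hN (hAo.mem_nhds (hχmem q hq)))
      rw [hχr q hq] at h1
      rw [mem_map]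
      refine mem_of_superset h1 ?_
      rintro _ ⟨a, ⟨haN, haA⟩, rfl⟩
      simpa [hχl a haA] using haN
    have htd : IsTotallyDisconnected ((ψ '' G)ᶜ \ Ω₀ᶜ) := by
      intro t ht hpre
      have htΩ : t ⊆ Ω₀ := fun y hy => not_not.mp (ht hy).2
      have hpre' : IsPreconnected (χ '' t) := hpre.image χ (hχcont.mono htΩ)
      have hsub : χ '' t ⊆ Gᶜ := by
        rintro _ ⟨y, hy, rfl⟩ hG'
        exact (ht hy).1 ⟨χ y, hG', hχr y (htΩ hy)⟩
      intro x hx y hy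
      have hxG : χ x ∈ Gᶜ := hsub ⟨x, hx, rfl⟩
      have hxA : χ x ∉ A := hχmem x (htΩ hx)
      have h1 := hpre'.subset_connectedComponentIn (x := χ x) ⟨x, hx, rfl⟩ hsub
      rw [hpts (χ x) hxG hxA] at h1
      have h2 : χ y = χ x := h1 ⟨y, hy, rfl⟩
      rw [← hχr x (htΩ hx), ← hχr y (htΩ hy), h2]
    intro p hp
    by_cases hpK : p ∈ Ω₀ᶜ
    · rw [component_eq_of_mem hCclosed hKclosed hKC htd hpK]
      exact hΩ₀.2 p hpK
    · exact Or.inl (component_eq_singleton_of_diff hCclosed hKclosed htd ⟨hp, hpK⟩)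

end Vale.Agent.Lib.P116
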