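import Vale.Agent.Lib.P116.Disc
import Vale.Agent.Lib.P116.Reduction

/-!
# The complement of the segment `[-2, 2]` is conformally equivalent to the unit disc

The inverse of the Joukowski map `z ↦ z + 1/z`, written in the coordinate `u = 1/w`:
`u ↦ 2u / (1 + √(1 - 4u²))`, with the principal branch of the square root.
-/

namespace Vale.Agent.Lib.P116

open Set Filter Topology OnePoint

lemma isClosed_seg : IsClosed seg :=
  (isCompact_Icc.image (OnePoint.continuous_coe.comp Complex.continuous_ofReal)).isClosed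

/-- The principal square root of `1 - 4u²`. -/
noncomputable def rt (u : ℂ) : ℂ := Complex.exp (Complex.log (1 - 4 * u ^ 2) / 2)

/-- The inverse Joukowski map in the coordinate `u = 1/w`. -/
noncomputable def phi (u : ℂ) : ℂ := 2 * u / (1 + rt u)

/-- The conformal map of the complement of `[-2, 2]` onto the unit disc. -/
noncomputable def slitMap (p : Sphere) : Sphere :=
  OnePoint.elim p ((0 : ℂ) : Sphere) (fun w => ((phi w⁻¹ : ℂ) : Sphere))

lemma rt_sq {u : ℂ} (hu : 1 - 4 * u ^ 2 ∈ Complex.slitPlane) : rt u ^ 2 = 1 - 4 * u ^ 2 := by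
  have h0 : 1 - 4 * u ^ 2 ≠ 0 := Complex.slitPlane_ne_zero hu
  rw [rt, ← Complex.exp_nat_mul]
  have : ((2 : ℕ) : ℂ) * (Complex.log (1 - 4 * u ^ 2) / 2) = Complex.log (1 - 4 * u ^ 2) := by
    push_cast; ring
  rw [this, Complex.exp_log h0]

lemma rt_re_pos {u : ℂ} (hu : 1 - 4 * u ^ 2 ∈ Complex.slitPlane) : 0 < (rt u).re := by
  rw [rt, Complex.exp_re]
  apply mul_pos (Real.exp_pos _)
  apply Real.cos_pos_of_mem_Ioo
  have h1 : (Complex.log (1 - 4 * u ^ 2) / 2).im = (1 - 4 * u ^ 2).arg / 2 := by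
    rw [show (Complex.log (1 - 4 * u ^ 2) / 2) = Complex.log (1 - 4 * u ^ 2) * ((1 / 2 : ℝ) : ℂ) by
      push_cast; ring]
    rw [Complex.im_mul_ofReal, Complex.log_im]
    ring
  rw [h1]
  have h2 := Complex.neg_pi_lt_arg (1 - 4 * u ^ 2)
  have h3 : (1 - 4 * u ^ 2).arg < Real.pi := by
    rcases (Complex.mem_slitPlane_iff_arg.mp hu) with ⟨h, -⟩
    exact lt_of_le_of_ne (Complex.arg_le_pi _) h
  constructor <;> linarith

lemma one_add_rt_ne_zero {u : ℂ} (hu : 1 - 4 * u ^ 2 ∈ Complex.slitPlane) : 1 + rt u ≠ 0 := by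
  intro h
  have := congrArg Complex.re h
  have h2 := rt_re_pos hu
  simp at this
  linarith

lemma analyticAt_rt {u : ℂ} (hu : 1 - 4 * u ^ 2 ∈ Complex.slitPlane) : AnalyticAt ℂ rt u := by
  have h1 : AnalyticAt ℂ (fun u : ℂ => 1 - 4 * u ^ 2) u := by fun_prop
  have h2 : AnalyticAt ℂ (fun u : ℂ => Complex.log (1 - 4 * u ^ 2)) u := h1.clog hu
  have h3 : AnalyticAt ℂ (fun u : ℂ => Complex.log (1 - 4 * u ^ 2) / 2) u :=
    h2.div analyticAt_const (by norm_num)
  exact h3.cexp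

lemma analyticAt_phi {u : ℂ} (hu : 1 - 4 * u ^ 2 ∈ Complex.slitPlane) : AnalyticAt ℂ phi u := by
  have h1 : AnalyticAt ℂ (fun u : ℂ => 2 * u) u := by fun_prop
  have h2 : AnalyticAt ℂ (fun u : ℂ => 1 + rt u) u := analyticAt_const.add (analyticAt_rt hu)
  exact h1.div h2 (one_add_rt_ne_zero hu)

lemma one_mem_slitPlane' : (1 : ℂ) - 4 * (0 : ℂ) ^ 2 ∈ Complex.slitPlane := by
  simp

lemma phi_zero : phi 0 = 0 := by simp [phi]

/-- `|phi u| < 1`. -/
lemma norm_phi_lt_one {u : ℂ} (hu : 1 - 4 * u ^ 2 ∈ Complex.slitPlane) : ‖phi u‖ < 1 := by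
  have hsq := rt_sq hu
  have hre := rt_re_pos hu
  have hne := one_add_rt_ne_zero hu
  set r := rt u with hr
  have hpos : 0 < ‖1 + r‖ := norm_pos_iff.mpr hne
  rw [phi, norm_div, div_lt_one hpos]
  have h1 : (2 * u) ^ 2 = (1 - r) * (1 + r) := by
    have : (1 - r) * (1 + r) = 1 - r ^ 2 := by ring
    rw [this, hsq]; ring
  have h2 : ‖2 * u‖ ^ 2 = ‖1 - r‖ * ‖1 + r‖ := by
    rw [← norm_pow, h1, norm_mul]
  have h3 : ‖1 - r‖ < ‖1 + r‖ := by
    have ha : ‖1 - r‖ ^ 2 = (1 - r.re) ^ 2 + r.im ^ 2 := by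
      rw [Complex.sq_norm, Complex.normSq_apply]; simp; ring
    have hb : ‖1 + r‖ ^ 2 = (1 + r.re) ^ 2 + r.im ^ 2 := by
      rw [Complex.sq_norm, Complex.normSq_apply]; simp; ring
    have hlt : ‖1 - r‖ ^ 2 < ‖1 + r‖ ^ 2 := by rw [ha, hb]; nlinarith
    exact lt_of_pow_lt_pow_left₀ 2 (norm_nonneg _) hlt
  have h4 : ‖2 * u‖ ^ 2 < ‖1 + r‖ ^ 2 := by
    rw [h2, sq]
    exact mul_lt_mul_of_pos_right h3 hpos
  exact lt_of_pow_lt_pow_left₀ 2 (norm_nonneg _) h4

/-- The Joukowski relation `phi u + 1 / phi u = 1 / u`. -/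
lemma phi_add_inv {u : ℂ} (hu : 1 - 4 * u ^ 2 ∈ Complex.slitPlane) (hu0 : u ≠ 0) :
    phi u + (phi u)⁻¹ = u⁻¹ := by
  have hsq := rt_sq hu
  have hne := one_add_rt_ne_zero hu
  rw [phi]
  field_simp
  linear_combination hsq

lemma phi_ne_zero {u : ℂ} (hu : 1 - 4 * u ^ 2 ∈ Complex.slitPlane) (hu0 : u ≠ 0) : phi u ≠ 0 := by
  rw [phi]
  exact div_ne_zero (mul_ne_zero two_ne_zero hu0) (one_add_rt_ne_zero hu)

/-- A finite point outside the segment is nonzero and `1 - 4 / w²` lies in the slit plane. -/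
lemma mem_slitPlane_of_notMem_seg {w : ℂ} (hw : (w : Sphere) ∉ seg) :
    w ≠ 0 ∧ 1 - 4 * (w⁻¹) ^ 2 ∈ Complex.slitPlane := by
  have hw0 : w ≠ 0 := by
    rintro rfl
    exact hw ⟨0, by constructor <;> norm_num, by simp⟩
  refine ⟨hw0, ?_⟩
  by_contra hns
  rw [Complex.mem_slitPlane_iff, not_or, not_lt, not_not] at hns
  obtain ⟨hre, him⟩ := hns
  set v := w⁻¹ with hv
  have h3 : (v ^ 2).im = 2 * v.re * v.im := by rw [sq, Complex.mul_im]; ring
  have h4 : (v ^ 2).re = v.re ^ 2 - v.im ^ 2 := by rw [sq, Complex.mul_re]; ring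
  have h1 : (v ^ 2).im = 0 := by
    have : (1 - 4 * v ^ 2).im = -4 * (v ^ 2).im := by simp
    linarith
  have h2 : 1 / 4 ≤ (v ^ 2).re := by
    have : (1 - 4 * v ^ 2).re = 1 - 4 * (v ^ 2).re := by simp
    linarith
  have hb : v.im = 0 := by
    by_contra hb
    have ha : v.re = 0 := by
      have h5 : 2 * v.re * v.im = 0 := by rw [← h3, h1]
      rcases mul_eq_zero.mp h5 with h | h
      · linarith
      · exact absurd h hb
    rw [h4, ha] at h2
    nlinarith [sq_nonneg v.im]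
  have ha2 : 1 / 4 ≤ v.re ^ 2 := by
    rw [h4, hb] at h2
    linarith
  have hva : v = (v.re : ℂ) := Complex.ext rfl (by simp [hb])
  have hwv : w = (((v.re)⁻¹ : ℝ) : ℂ) := by
    rw [Complex.ofReal_inv, ← hva, hv, inv_inv]
  apply hw
  refine ⟨(v.re)⁻¹, ?_, by simp only [← hwv]⟩
  have habs : 1 / 2 ≤ |v.re| := by
    nlinarith [abs_nonneg v.re, sq_abs v.re]
  rw [mem_Icc, ← abs_le, abs_inv]
  have hpos : 0 < |v.re| := by linarith
  rw [inv_le_comm₀ hpos (by norm_num)]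
  linarith

lemma notMem_seg_of_mem_slitPlane {w : ℂ} (hw0 : w ≠ 0)
    (h : 1 - 4 * (w⁻¹) ^ 2 ∈ Complex.slitPlane) : (w : Sphere) ∉ seg := by
  rintro ⟨x, hx, hxw⟩
  have hxw' : (x : ℂ) = w := OnePoint.coe_injective hxw
  subst hxw'
  have hx0 : x ≠ 0 := by
    rintro rfl
    simp at hw0
  rw [Complex.mem_slitPlane_iff] at h
  have e : (1 - 4 * ((x : ℂ)⁻¹) ^ 2) = ((1 - 4 * (x⁻¹) ^ 2 : ℝ) : ℂ) := by push_cast; ring
  rw [e, Complex.ofReal_re, Complex.ofReal_im] at h
  rcases h with h | h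
  · have hx2 : x ^ 2 ≤ 4 := by nlinarith [hx.1, hx.2]
    have hxpos : 0 < x ^ 2 := by positivity
    have h5 : (x⁻¹) ^ 2 = (x ^ 2)⁻¹ := by rw [inv_pow]
    rw [h5] at h
    have h6 : 1 / 4 ≤ (x ^ 2)⁻¹ := by
      rw [one_div, inv_le_inv₀ (by norm_num) hxpos]
      exact hx2
    linarith
  · exact h rfl

lemma holAt_slitMap_coe {w : ℂ} (hw : (w : Sphere) ∉ seg) : HolAt slitMap (w : Sphere) := by
  obtain ⟨hw0, hsl⟩ := mem_slitPlane_of_notMem_seg hw
  have han : AnalyticAt ℂ (fun w' : ℂ => phi w'⁻¹) w :=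
    AnalyticAt.comp (g := phi) (f := fun w' : ℂ => w'⁻¹) (analyticAt_phi hsl) (analyticAt_inv hw0)
  constructor
  · rw [OnePoint.continuousAt_coe]
    exact OnePoint.continuous_coe.continuousAt.comp han.continuousAt
  · exact han

lemma holAt_slitMap_infty : HolAt slitMap (∞ : Sphere) := by
  constructor
  · rw [OnePoint.continuousAt_infty']
    have h1 : Tendsto (fun w : ℂ => w⁻¹) (coclosedCompact ℂ) (𝓝 (0 : ℂ)) := by
      rw [coclosedCompact_eq_cocompact, ← Metric.cobounded_eq_cocompact]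
      exact tendsto_inv₀_cobounded
    have h2 : ContinuousAt phi 0 := (analyticAt_phi one_mem_slitPlane').continuousAt
    have h3 : Tendsto (fun w : ℂ => phi w⁻¹) (coclosedCompact ℂ) (𝓝 (phi 0)) := h2.tendsto.comp h1
    rw [phi_zero] at h3
    exact (OnePoint.continuous_coe.tendsto 0).comp h3
  · have hfun : (fun u : ℂ => chart (slitMap ∞) (slitMap (chartInv ∞ u))) = phi := by
      funext u
      show toC (slitMap (sphereInv (u : Sphere))) = phi u
      by_cases hu : u = 0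
      · subst hu
        simp [slitMap, phi_zero]
      · rw [sphereInv_coe hu]
        simp [slitMap]
    rw [hfun]
    exact analyticAt_phi one_mem_slitPlane'

/-- The Joukowski map `z ↦ z + 1/z` inverts `phi` on the punctured unit disc. -/
lemma phi_joukowski {z : ℂ} (hz : ‖z‖ < 1) (hz0 : z ≠ 0) :
    z + z⁻¹ ≠ 0 ∧ 1 - 4 * ((z + z⁻¹)⁻¹) ^ 2 ∈ Complex.slitPlane ∧ phi ((z + z⁻¹)⁻¹) = z := by
  have hnz : ‖z ^ 2‖ < 1 := by
    rw [norm_pow]
    exact pow_lt_one₀ (norm_nonneg z) hz two_ne_zero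
  have h1 : 1 + z ^ 2 ≠ 0 := by
    intro h
    have : z ^ 2 = -1 := by linear_combination h
    rw [this] at hnz
    simp at hnz
  have hw : z + z⁻¹ = (1 + z ^ 2) / z := by field_simp; ring
  have hw0 : z + z⁻¹ ≠ 0 := by rw [hw]; exact div_ne_zero h1 hz0
  set q := (1 - z ^ 2) / (1 + z ^ 2) with hq
  have hu : (z + z⁻¹)⁻¹ = z / (1 + z ^ 2) := by rw [hw, inv_div]
  have hqsq : 1 - 4 * ((z + z⁻¹)⁻¹) ^ 2 = q ^ 2 := by
    rw [hu, hq]; field_simp; ring
  have hqre : 0 < q.re := by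
    rw [hq, Complex.div_re]
    have hN : 0 < Complex.normSq (1 + z ^ 2) := Complex.normSq_pos.mpr h1
    have hnum : 0 < (1 - z ^ 2).re * (1 + z ^ 2).re + (1 - z ^ 2).im * (1 + z ^ 2).im := by
      have hs : ‖z ^ 2‖ ^ 2 = (z ^ 2).re ^ 2 + (z ^ 2).im ^ 2 := by
        rw [Complex.sq_norm, Complex.normSq_apply]; ring
      have hlt : ‖z ^ 2‖ ^ 2 < 1 := by
        have := norm_nonneg (z ^ 2)
        nlinarith
      simp only [Complex.sub_re, Complex.one_re, Complex.add_re, Complex.sub_im, Complex.one_im,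
        Complex.add_im]
      nlinarith
    have : (1 - z ^ 2).re * (1 + z ^ 2).re / Complex.normSq (1 + z ^ 2)
        + (1 - z ^ 2).im * (1 + z ^ 2).im / Complex.normSq (1 + z ^ 2)
        = ((1 - z ^ 2).re * (1 + z ^ 2).re + (1 - z ^ 2).im * (1 + z ^ 2).im)
          / Complex.normSq (1 + z ^ 2) := by ring
    rw [this]
    exact div_pos hnum hN
  have hslit : q ^ 2 ∈ Complex.slitPlane := by
    rw [Complex.mem_slitPlane_iff]
    have h3 : (q ^ 2).im = 2 * q.re * q.im := by rw [sq, Complex.mul_im]; ring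
    have h4 : (q ^ 2).re = q.re ^ 2 - q.im ^ 2 := by rw [sq, Complex.mul_re]; ring
    by_cases hqi : q.im = 0
    · left
      rw [h4, hqi]
      nlinarith
    · right
      rw [h3]
      exact mul_ne_zero (mul_ne_zero two_ne_zero hqre.ne') hqi
  have hsl : 1 - 4 * ((z + z⁻¹)⁻¹) ^ 2 ∈ Complex.slitPlane := by rw [hqsq]; exact hslit
  refine ⟨hw0, hsl, ?_⟩
  have hrsq := rt_sq hsl
  have hrre := rt_re_pos hsl
  have hrt : rt ((z + z⁻¹)⁻¹) = q := by
    have h5 : (rt ((z + z⁻¹)⁻¹) - q) * (rt ((z + z⁻¹)⁻¹) + q) = 0 := by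
      have : (rt ((z + z⁻¹)⁻¹) - q) * (rt ((z + z⁻¹)⁻¹) + q)
          = rt ((z + z⁻¹)⁻¹) ^ 2 - q ^ 2 := by ring
      rw [this, hrsq, hqsq, sub_self]
    rcases mul_eq_zero.mp h5 with h | h
    · exact sub_eq_zero.mp h
    · exfalso
      have := congrArg Complex.re h
      simp only [Complex.add_re, Complex.zero_re] at this
      linarith
  rw [phi, hrt, hu, hq]
  have h6 : 1 + (1 - z ^ 2) / (1 + z ^ 2) = 2 / (1 + z ^ 2) := by field_simp; ring
  rw [h6]
  field_simp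

lemma infty_notMem_seg : (∞ : Sphere) ∉ seg := by
  rintro ⟨x, -, hx⟩
  exact OnePoint.coe_ne_infty _ hx

lemma bijOn_slitMap : BijOn slitMap segᶜ openUnitDisc := by
  refine ⟨?_, ?_, ?_⟩
  · intro p hp
    induction p using OnePoint.rec with
    | infty => exact ⟨0, by simp, rfl⟩
    | coe w =>
      obtain ⟨hw0, hsl⟩ := mem_slitPlane_of_notMem_seg hp
      exact ⟨phi w⁻¹, by simpa using norm_phi_lt_one hsl, rfl⟩
  · intro p hp q hq hpq
    induction p using OnePoint.rec with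
    | infty =>
      induction q using OnePoint.rec with
      | infty => rfl
      | coe w =>
        obtain ⟨hw0, hsl⟩ := mem_slitPlane_of_notMem_seg hq
        have h1 : (0 : ℂ) = phi w⁻¹ := OnePoint.coe_injective hpq
        exact absurd h1.symm (phi_ne_zero hsl (inv_ne_zero hw0))
    | coe w =>
      obtain ⟨hw0, hsl⟩ := mem_slitPlane_of_notMem_seg hp
      induction q using OnePoint.rec with
      | infty =>
        have h1 : phi w⁻¹ = (0 : ℂ) := OnePoint.coe_injective hpq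
        exact absurd h1 (phi_ne_zero hsl (inv_ne_zero hw0))
      | coe w' =>
        obtain ⟨hw0', hsl'⟩ := mem_slitPlane_of_notMem_seg hq
        have h1 : phi w⁻¹ = phi w'⁻¹ := OnePoint.coe_injective hpq
        have h2 := phi_add_inv hsl (inv_ne_zero hw0)
        have h3 := phi_add_inv hsl' (inv_ne_zero hw0')
        rw [inv_inv] at h2 h3
        rw [← h2, ← h3, h1]
  · rintro _ ⟨z, hz, rfl⟩
    have hz' : ‖z‖ < 1 := by simpa using hz
    by_cases hz0 : z = 0
    · subst hz0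
      exact ⟨∞, infty_notMem_seg, rfl⟩
    · obtain ⟨hw0, hsl, hphi⟩ := phi_joukowski hz' hz0
      refine ⟨((z + z⁻¹ : ℂ) : Sphere), notMem_seg_of_mem_slitPlane hw0 hsl, ?_⟩
      show ((phi (z + z⁻¹)⁻¹ : ℂ) : Sphere) = (z : Sphere)
      rw [hphi]

/-- The complement of the segment `[-2, 2]` is conformally equivalent to the open unit disc. -/
theorem confEquiv_compl_seg : ConfEquiv segᶜ openUnitDisc := by
  refine ⟨slitMap, bijOn_slitMap, fun p hp => ?_⟩
  induction p using OnePoint.rec with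
  | infty => exact holAt_slitMap_infty
  | coe w => exact holAt_slitMap_coe hp

/-- Koebe's conjecture for domains whose complement consists of the segment `[-2, 2]` and
point components. -/
theorem slit_theorem (G : Set Sphere) (hG : IsDomain G) (hseg : seg ⊆ Gᶜ)
    (hpts : ∀ p ∈ Gᶜ, p ∉ seg → connectedComponentIn Gᶜ p = {p}) :
    ∃ Ω : Set Sphere, IsCircleDomain Ω ∧ ConfEquiv G Ω :=
  koebe_reduction G seg hG isClosed_seg hseg hpts
    ⟨openUnitDisc, isCircleDomain_openUnitDisc, confEquiv_compl_seg⟩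

end Vale.Agent.Lib.P116
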