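import Vale.Agent.Lib.P116.Defs

/-!
# Components of a compact set that is totally disconnected away from a closed subset
-/

namespace Vale.Agent.Lib.P116

open Set Filter Topology

section general

variable {X : Type*} [TopologicalSpace X] [T2Space X] [CompactSpace X]

/-- In a compact Hausdorff space, let `K ⊆ C` be closed sets with `C \ K` totally
disconnected.  Then every point of `C \ K` is a connected component of `C`. -/
theorem component_eq_singleton_of_diff {C K : Set X} (hC : IsClosed C) (hK : IsClosed K)
    (htd : IsTotallyDisconnected (C \ K)) {x : X} (hx : x ∈ C \ K) :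
    connectedComponentIn C x = {x} := by
  have : CompactSpace C := isCompact_iff_compactSpace.mp hC.isCompact
  let U : Set C := {y | (y : X) ∉ K}
  have hUo : IsOpen U := (hK.preimage continuous_subtype_val).isOpen_compl
  have : LocallyCompactSpace U := hUo.locallyCompactSpace
  have : TotallyDisconnectedSpace U := by
    rw [totallyDisconnectedSpace_subtype_iff]
    refine isTotallyDisconnected_of_image (f := ((↑) : C → X))
      continuous_subtype_val.continuousOn Subtype.val_injective ?_
    refine fun t ht => htd t (ht.trans ?_)
    rintro _ ⟨y, hy, rfl⟩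
    exact ⟨y.2, hy⟩
  let x₁ : C := ⟨x, hx.1⟩
  have hx₁ : x₁ ∈ U := hx.2
  let x₂ : U := ⟨x₁, hx₁⟩
  obtain ⟨N, hNc, hNn⟩ := exists_compact_mem_nhds x₂
  have hbasis := loc_compact_Haus_tot_disc_of_zero_dim (H := U)
  obtain ⟨V, hVclopen, hxV, hVN⟩ := hbasis.mem_nhds_iff.mp (interior_mem_nhds.mpr hNn)
  have hVclopen' : IsClopen V := hVclopen
  have hVc : IsCompact V := hNc.of_isClosed_subset hVclopen'.isClosed (hVN.trans interior_subset)
  let V₁ : Set C := (↑) '' V
  have hV₁closed : IsClosed V₁ := (hVc.image continuous_subtype_val).isClosed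
  have hV₁open : IsOpen V₁ := hUo.isOpenMap_subtype_val V hVclopen'.isOpen
  have hxV₁ : x₁ ∈ V₁ := ⟨x₂, hxV, rfl⟩
  have hsub : connectedComponent x₁ ⊆ V₁ :=
    IsClopen.connectedComponent_subset ⟨hV₁closed, hV₁open⟩ hxV₁
  have hsub2 : connectedComponentIn C x ⊆ C \ K := by
    rw [connectedComponentIn_eq_image hx.1]
    rintro _ ⟨y, hy, rfl⟩
    obtain ⟨z, -, rfl⟩ := hsub hy
    exact ⟨z.1.2, z.2⟩
  have hss := htd _ hsub2 isPreconnected_connectedComponentIn
  exact (Set.subsingleton_iff_singleton (mem_connectedComponentIn hx.1)).mp hss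

/-- Under the same hypotheses, the component in `C` of a point of `K` is its component
in `K`. -/
theorem component_eq_of_mem {C K : Set X} (hC : IsClosed C) (hK : IsClosed K) (hKC : K ⊆ C)
    (htd : IsTotallyDisconnected (C \ K)) {x : X} (hx : x ∈ K) :
    connectedComponentIn C x = connectedComponentIn K x := by
  apply Set.Subset.antisymm
  · have hsub : connectedComponentIn C x ⊆ K := by
      intro y hy
      by_contra hyK
      have hyC : y ∈ C := connectedComponentIn_subset C x hy
      have h1 := component_eq_singleton_of_diff hC hK htd (x := y) ⟨hyC, hyK⟩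
      rw [← connectedComponentIn_eq hy] at h1
      have hxmem : x ∈ connectedComponentIn C x := mem_connectedComponentIn (hKC hx)
      rw [h1] at hxmem
      exact hyK (hxmem ▸ hx)
    exact isPreconnected_connectedComponentIn.subset_connectedComponentIn
      (mem_connectedComponentIn (hKC hx)) hsub
  · exact connectedComponentIn_mono x hKC

end general

end Vale.Agent.Lib.P116
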